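import Vale.Agent.P097.H36.BubD

set_option linter.all false

/-!
# Row START, part 1: at last times of the weight the quasi-limit is much better

Setting of the quasi-limit (`H36.Bub`).  If `P` is the quasi-limit at `b` then, for every
`η > 0`, frequently as `t → 0+`: `|Y - P g| + t |Y' - P g'| ≤ t^(1-η)` on the whole disc of radius
`t / 4` about the point of depth `t` (no factor `|g| + t |g'|` on the right hand side).
-/

namespace Vale.Agent.P097.H649.St

open Complex Metric Set Filter Topology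
open Vale.Agent.P097.H36.Bub

variable {H b a d₀ ε C : ℝ} {g u Y U Q F : ℂ → ℂ}

/-- the axis point of depth `t` -/
noncomputable def ax (H b t : ℝ) : ℂ := (b : ℂ) + ((H - t : ℝ) : ℂ) * I

theorem ax_im (H b t : ℝ) : (ax H b t).im = H - t := by simp [ax]

theorem ax_re (H b t : ℝ) : (ax H b t).re = b := by simp [ax]

theorem ax_depth (H b t : ℝ) : H - (ax H b t).im = t := by rw [ax_im]; ring

theorem ax_eq (H b t : ℝ) : ((b : ℂ) + (H : ℂ) * I) + (t : ℂ) * (-I) = ax H b t := by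
  unfold ax; push_cast; ring

section
variable (D : Data H b a d₀ ε C g u Y U Q F)
include D

theorem den_lower {t : ℝ} (h0 : 0 < t) (h1 : t ≤ d₀) :
    t ^ ε ≤ C * den H g u (ax H b t) := by
  have h := D.hN _ (D.mem_axis h0 h1)
  have e : H - ((b : ℂ) + ((H - t : ℝ) : ℂ) * I).im = t := ax_depth H b t
  rw [e] at h
  exact h

theorem cont_den {t : ℝ} (h0 : 0 < t) (h1 : t ≤ d₀) :
    ContinuousWithinAt (fun s => den H g u (ax H b s)) (Ioc 0 d₀) t := by
  have hm := D.mem_axis h0 h1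
  have hg : ContinuousAt g (ax H b t) := (D.hg _ hm).continuousAt
  have hu : ContinuousAt u (ax H b t) := (D.hu _ hm).continuousAt
  have hax : Continuous (fun s : ℝ => ax H b s) := by
    unfold ax; fun_prop
  have h2 : ContinuousAt (fun s => den H g u (ax H b s)) t := by
    unfold den
    have e1 : ContinuousAt (fun s : ℝ => g (ax H b s)) t :=
      ContinuousAt.comp (f := fun s : ℝ => ax H b s) hg hax.continuousAt
    have e2 : ContinuousAt (fun s : ℝ => u (ax H b s)) t :=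
      ContinuousAt.comp (f := fun s : ℝ => ax H b s) hu hax.continuousAt
    have e3 : ContinuousAt (fun s : ℝ => H - (ax H b s).im) t := by
      simp only [ax_depth]; exact continuousAt_id
    exact (e1.norm.pow 2).add ((e3.pow 2).mul (e2.norm.pow 2))
  exact h2.continuousWithinAt

/-- **last times** of the weight -/
theorem exists_last (hε : 0 < ε) {t₀ : ℝ} (h0 : 0 < t₀) (h1 : t₀ ≤ d₀) :
    ∃ t, 0 < t ∧ t ≤ t₀ ∧ ∀ s, 0 < s → s ≤ t →
      den H g u (ax H b t) * t ^ (-(2 * ε)) ≤ den H g u (ax H b s) * s ^ (-(2 * ε)) := by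
  set M : ℝ → ℝ := fun s => den H g u (ax H b s) * s ^ (-(2 * ε)) with hM
  have hC := D.C1
  -- M is large near 0
  have hbig : ∃ s₁ > 0, s₁ < t₀ ∧ ∀ s, 0 < s → s < s₁ → M t₀ ≤ M s := by
    have h2 : Tendsto (fun d : ℝ => d ^ (-ε)) (𝓝[>] 0) atTop :=
      tendsto_rpow_neg_nhdsGT_zero (by linarith)
    have h3 := h2.eventually (eventually_ge_atTop (C * M t₀))
    rw [eventually_nhdsWithin_iff, Metric.eventually_nhds_iff] at h3
    obtain ⟨ρ, hρ, h4⟩ := h3
    refine ⟨min ρ (t₀ / 2), by positivity, ?_, ?_⟩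
    · have := min_le_right ρ (t₀ / 2); linarith
    intro s hs hs1
    have hsρ : s < ρ := lt_of_lt_of_le hs1 (min_le_left _ _)
    have hst : s < t₀ / 2 := lt_of_lt_of_le hs1 (min_le_right _ _)
    have h5 := h4 (y := s) (by rw [Real.dist_eq, sub_zero, abs_of_pos hs]; exact hsρ) hs
    have h6 := den_lower D hs (by linarith)
    have h7 : s ^ ε * s ^ (-(2 * ε)) = s ^ (-ε) := by
      rw [← Real.rpow_add hs]; congr 1; ring
    have h8 : 0 < s ^ (-(2 * ε)) := Real.rpow_pos_of_pos hs _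
    have h9 : s ^ (-ε) ≤ C * M s := by
      rw [← h7]
      calc s ^ ε * s ^ (-(2 * ε)) ≤ (C * den H g u (ax H b s)) * s ^ (-(2 * ε)) := by gcongr
        _ = C * M s := by simp only [hM]; ring
    have h10 : C * M t₀ ≤ C * M s := h5.trans h9
    exact le_of_mul_le_mul_left h10 (by linarith)
  obtain ⟨s₁, hs1, hs1t, hlow⟩ := hbig
  have hcont : ContinuousOn M (Icc s₁ t₀) := by
    intro s hs
    have hs0 : 0 < s := lt_of_lt_of_le hs1 hs.1
    have hA : ContinuousWithinAt (fun s => den H g u (ax H b s)) (Icc s₁ t₀) s :=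
      (cont_den D hs0 (hs.2.trans h1)).mono (fun x hx => ⟨lt_of_lt_of_le hs1 hx.1, hx.2.trans h1⟩)
    have hB : ContinuousAt (fun s : ℝ => s ^ (-(2 * ε))) s :=
      Real.continuousAt_rpow_const _ _ (Or.inl hs0.ne')
    exact hA.mul hB.continuousWithinAt
  obtain ⟨t, ht, hmin⟩ := isCompact_Icc.exists_isMinOn (nonempty_Icc.2 hs1t.le) hcont
  have hmin' : ∀ s ∈ Icc s₁ t₀, M t ≤ M s := fun s hs => hmin hs
  refine ⟨t, lt_of_lt_of_le hs1 ht.1, ht.2, fun s hs hst => ?_⟩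
  by_cases h : s < s₁
  · exact (hmin' t₀ ⟨hs1t.le, le_rfl⟩).trans (hlow s hs h)
  · exact hmin' s ⟨not_lt.1 h, hst.trans ht.2⟩

/-- the integrated gradient bound from a last time -/
theorem last_ver (hε5 : 5 * ε < 1) {t : ℝ} (h0 : 0 < t) (h1 : t ≤ d₀)
    (hlast : ∀ s, 0 < s → s ≤ t →
      den H g u (ax H b t) * t ^ (-(2 * ε)) ≤ den H g u (ax H b s) * s ^ (-(2 * ε)))
    {s : ℝ} (hs : 0 < s) (hst : s ≤ t) :
    √(den H g u (ax H b t)) * ‖pr H g u Y U (ax H b t) - pr H g u Y U (ax H b s)‖ ≤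
      4 * C ^ 3 / (1 - 5 * ε) * t ^ (1 - 3 * ε) := by
  set x₀ : ℂ := (b : ℂ) + (H : ℂ) * I with hx₀
  set N : ℝ → ℝ := fun s => den H g u (ax H b s) with hN
  have hC := D.C1
  have hε0 := D.e0
  have hNt : 0 < N t := D.den_pos (D.mem_axis h0 h1)
  have hsq : 0 < √(N t) := Real.sqrt_pos.2 hNt
  have hsqsq : √(N t) * √(N t) = N t := Real.mul_self_sqrt hNt.le
  have hd : ∀ τ ∈ Icc s t, ∃ p' : ℂ,
      HasDerivAt (fun s : ℝ => pr H g u Y U (x₀ + s * (-I))) p' τ ∧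
      √(N t) * ‖p'‖ ≤ 4 * C ^ 3 * t ^ (2 * ε) * τ ^ (-(5 * ε)) := by
    intro τ hτ
    have hτ0 : 0 < τ := lt_of_lt_of_le hs hτ.1
    have hτ1 : τ ≤ d₀ := hτ.2.trans h1
    have hax : x₀ + (τ : ℂ) * (-I) = ax H b τ := ax_eq H b τ
    have hm : x₀ + (τ : ℂ) * (-I) ∈ Cone H b a d₀ := by
      rw [hax]; exact D.mem_axis hτ0 hτ1
    obtain ⟨p', q1, q2⟩ := hasDerivAt_pr (H := H) (Q := Q) (F := F) (D.hg _ hm) (D.hu _ hm)
      (D.hY _ hm) (D.hU _ hm) hm.2.1.le (D.den_pos hm)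
    refine ⟨p', q1, ?_⟩
    rw [hax] at q2 hm
    have hW := D.hW _ hm
    have hQ := D.hQ _ hm
    have hF := D.hF _ hm
    have hi := D.inv_sqrt_den (D.mem_axis h0 h1)
    have hit : H - ((b : ℂ) + ((H - t : ℝ) : ℂ) * I).im = t := ax_depth H b t
    rw [hit] at hi
    rw [ax_depth] at hW hQ hF q2
    have hne : ‖(-I : ℂ)‖ = 1 := by simp
    rw [hne, one_mul] at q2
    have hNτ : 0 < N τ := D.den_pos hm
    have hsτ : 0 < √(N τ) := Real.sqrt_pos.2 hNτ
    have hl := hlast τ hτ0 hτ.2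
    set r := τ ^ (-ε) with hr
    have hr1 : 1 ≤ r := one_le_rpow_neg hτ0 (hτ1.trans D.d1) hε0
    -- N t ≤ (t/τ)^(2 ε) N τ
    set k := t ^ (2 * ε) * τ ^ (-(2 * ε)) with hk
    have hk1 : 1 ≤ k := by
      have : k = (t / τ) ^ (2 * ε) := by
        rw [hk, Real.div_rpow h0.le hτ0.le, Real.rpow_neg hτ0.le, div_eq_mul_inv]
      rw [this]
      apply Real.one_le_rpow _ (by linarith)
      rw [le_div_iff₀ hτ0]; linarith [hτ.2]
    have htt : t ^ (-(2 * ε)) * t ^ (2 * ε) = 1 := by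
      rw [← Real.rpow_add h0]; simp
    have hNk : N t ≤ k * N τ := by
      have h5 : (den H g u (ax H b t) * t ^ (-(2 * ε))) * t ^ (2 * ε) ≤
          (den H g u (ax H b τ) * τ ^ (-(2 * ε))) * t ^ (2 * ε) :=
        mul_le_mul_of_nonneg_right hl (Real.rpow_nonneg h0.le _)
      calc N t = den H g u (ax H b t) * (t ^ (-(2 * ε)) * t ^ (2 * ε)) := by rw [htt, mul_one]
        _ = (den H g u (ax H b t) * t ^ (-(2 * ε))) * t ^ (2 * ε) := by ring
        _ ≤ _ := h5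
        _ = k * N τ := by rw [hk]; ring
    have hA : √(N t) / N τ ≤ k * (C * r) := by
      rw [div_le_iff₀ hNτ]
      have h6 : 1 / √(N t) ≤ C * r := by
        refine hi.trans ?_
        have : t ^ (-ε) ≤ τ ^ (-ε) := by
          rw [Real.rpow_neg h0.le, Real.rpow_neg hτ0.le]
          have := Real.rpow_le_rpow hτ0.le hτ.2 hε0
          gcongr
        gcongr
      calc √(N t) = N t * (1 / √(N t)) := by
            rw [mul_one_div, eq_div_iff hsq.ne', hsqsq]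
        _ ≤ (k * N τ) * (C * r) := by gcongr
        _ = k * (C * r) * N τ := by ring
    have hB : √(N t) / √(N τ) ≤ k := by
      rw [div_le_iff₀ hsτ]
      apply Real.sqrt_le_iff.2
      constructor
      · positivity
      · rw [mul_pow, Real.sq_sqrt hNτ.le]
        calc N t ≤ k * N τ := hNk
          _ ≤ k ^ 2 * N τ := by
            apply mul_le_mul_of_nonneg_right _ hNτ.le
            nlinarith
    have hr3 : τ ^ (-(5 * ε)) = τ ^ (-(2 * ε)) * r ^ 3 := by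
      rw [hr, ← Real.rpow_natCast, ← Real.rpow_mul hτ0.le, ← Real.rpow_add hτ0]
      congr 1
      push_cast
      ring
    set W := ‖g (ax H b τ) * U (ax H b τ) - u (ax H b τ) * Y (ax H b τ)‖ with hWd
    have hτ1' : τ ≤ 1 := hτ1.trans D.d1
    have e1 : √(N t) * (W * (2 + τ ^ 2 * ‖Q (ax H b τ)‖) / N τ) ≤
        (C * r) * (2 + C * r) * (k * (C * r)) := by
      have : √(N t) * (W * (2 + τ ^ 2 * ‖Q (ax H b τ)‖) / N τ) =
          W * (2 + τ ^ 2 * ‖Q (ax H b τ)‖) * (√(N t) / N τ) := by ring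
      rw [this]
      have h7 : 0 ≤ √(N t) / N τ := by positivity
      have h8 : 0 ≤ W := norm_nonneg _
      gcongr
    have e2 : √(N t) * (τ * ‖F (ax H b τ)‖ / √(N τ)) ≤ 1 * (C * r) * k := by
      have : √(N t) * (τ * ‖F (ax H b τ)‖ / √(N τ)) =
          τ * ‖F (ax H b τ)‖ * (√(N t) / √(N τ)) := by ring
      rw [this]
      have h7 : 0 ≤ √(N t) / √(N τ) := by positivity
      gcongr
    have hq : 1 ≤ C * r := by nlinarith
    calc √(N t) * ‖p'‖ ≤ √(N t) * (W * (2 + τ ^ 2 * ‖Q (ax H b τ)‖) / N τ +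
          τ * ‖F (ax H b τ)‖ / √(N τ)) := by gcongr
      _ ≤ (C * r) * (2 + C * r) * (k * (C * r)) + 1 * (C * r) * k := by rw [mul_add]; linarith
      _ = k * ((C * r) * (2 + C * r) * (C * r) + C * r) := by ring
      _ ≤ k * (4 * (C * r) ^ 3) := by
          apply mul_le_mul_of_nonneg_left _ (by linarith)
          nlinarith [mul_nonneg (sub_nonneg.2 hq) (sq_nonneg (C * r)), sq_nonneg (C * r - 1)]
      _ = 4 * C ^ 3 * t ^ (2 * ε) * τ ^ (-(5 * ε)) := by rw [hk, hr3]; ring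
  choose! p' hp' using hd
  have hpos : 0 < 1 - 5 * ε := by linarith
  set f : ℝ → ℂ := fun τ => (√(N t) : ℂ) *
    (pr H g u Y U (x₀ + τ * (-I)) - pr H g u Y U (x₀ + s * (-I))) with hf
  set B : ℝ → ℝ := fun τ => 4 * C ^ 3 * t ^ (2 * ε) / (1 - 5 * ε) *
    (τ ^ (1 - 5 * ε) - s ^ (1 - 5 * ε)) with hB
  have hfc : ∀ τ ∈ Icc s t, HasDerivAt f ((√(N t) : ℂ) * p' τ) τ := by
    intro τ hτ
    exact ((hp' τ hτ).1.sub_const _).const_mul _
  have hBd : ∀ τ ∈ Icc s t, HasDerivAt B (4 * C ^ 3 * t ^ (2 * ε) * τ ^ (-(5 * ε))) τ := by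
    intro τ hτ
    have hτ0 : τ ≠ 0 := (lt_of_lt_of_le hs hτ.1).ne'
    have h1 := ((Real.hasDerivAt_rpow_const (x := τ) (p := 1 - 5 * ε) (Or.inl hτ0)).sub_const
      (s ^ (1 - 5 * ε))).const_mul (4 * C ^ 3 * t ^ (2 * ε) / (1 - 5 * ε))
    refine h1.congr_deriv ?_
    have h9 : 1 - 5 * ε - 1 = -(5 * ε) := by ring
    have h8 : (1 - 5 * ε) ≠ 0 := hpos.ne'
    rw [h9, ← mul_assoc, div_mul_cancel₀ _ h8]
  have key := image_norm_le_of_norm_deriv_right_le_deriv_boundary' (f := f)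
    (f' := fun τ => (√(N t) : ℂ) * p' τ) (a := s)
    (b := t) (B := B) (B' := fun τ => 4 * C ^ 3 * t ^ (2 * ε) * τ ^ (-(5 * ε)))
    (fun τ hτ => (hfc τ hτ).continuousAt.continuousWithinAt)
    (fun τ hτ => (hfc τ (Ico_subset_Icc_self hτ)).hasDerivWithinAt)
    (by simp [hf, hB])
    (fun τ hτ => (hBd τ hτ).continuousAt.continuousWithinAt)
    (fun τ hτ => (hBd τ (Ico_subset_Icc_self hτ)).hasDerivWithinAt)
    (fun τ hτ => by
      have := (hp' τ (Ico_subset_Icc_self hτ)).2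
      rw [norm_mul, norm_real, Real.norm_of_nonneg hsq.le]
      exact this)
    (right_mem_Icc.2 hst)
  have h1' : ‖f t‖ = √(N t) * ‖pr H g u Y U (ax H b t) - pr H g u Y U (ax H b s)‖ := by
    simp only [hf]
    rw [norm_mul, norm_real, Real.norm_of_nonneg hsq.le, ax_eq, ax_eq]
  rw [h1'] at key
  refine key.trans ?_
  have h2 : 0 ≤ s ^ (1 - 5 * ε) := Real.rpow_nonneg hs.le _
  have h3 : 0 ≤ 4 * C ^ 3 * t ^ (2 * ε) / (1 - 5 * ε) := by positivity
  have h4 : t ^ (2 * ε) * t ^ (1 - 5 * ε) = t ^ (1 - 3 * ε) := by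
    rw [← Real.rpow_add h0]; congr 1; ring
  simp only [hB]
  calc 4 * C ^ 3 * t ^ (2 * ε) / (1 - 5 * ε) * (t ^ (1 - 5 * ε) - s ^ (1 - 5 * ε))
      ≤ 4 * C ^ 3 * t ^ (2 * ε) / (1 - 5 * ε) * (t ^ (1 - 5 * ε)) := by
        apply mul_le_mul_of_nonneg_left _ h3
        linarith
    _ = 4 * C ^ 3 / (1 - 5 * ε) * (t ^ (2 * ε) * t ^ (1 - 5 * ε)) := by ring
    _ = _ := by rw [h4]

/-- the quasi-limit at a last time, at the centre -/
theorem last_point (hε5 : 5 * ε < 1) {P : ℂ}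
    (hP : Tendsto (fun t : ℝ => pr H g u Y U (ax H b t)) (𝓝[>] 0) (𝓝 P))
    {t : ℝ} (h0 : 0 < t) (h1 : t ≤ d₀)
    (hlast : ∀ s, 0 < s → s ≤ t →
      den H g u (ax H b t) * t ^ (-(2 * ε)) ≤ den H g u (ax H b s) * s ^ (-(2 * ε))) :
    ‖Y (ax H b t) - P * g (ax H b t)‖ ≤ 5 * C ^ 3 / (1 - 5 * ε) * t ^ (1 - 3 * ε) ∧
    t * ‖U (ax H b t) - P * u (ax H b t)‖ ≤ 5 * C ^ 3 / (1 - 5 * ε) * t ^ (1 - 3 * ε) := by
  have hC := D.C1
  have hε0 := D.e0
  have hpos : 0 < 1 - 5 * ε := by linarith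
  have hm := D.mem_axis h0 h1
  have hN : 0 < den H g u (ax H b t) := D.den_pos hm
  have hkey : √(den H g u (ax H b t)) * ‖pr H g u Y U (ax H b t) - P‖ ≤
      4 * C ^ 3 / (1 - 5 * ε) * t ^ (1 - 3 * ε) := by
    have h2 : Tendsto (fun s : ℝ => √(den H g u (ax H b t)) *
        ‖pr H g u Y U (ax H b t) - pr H g u Y U (ax H b s)‖) (𝓝[>] 0)
        (𝓝 (√(den H g u (ax H b t)) * ‖pr H g u Y U (ax H b t) - P‖)) :=
      ((tendsto_const_nhds.sub hP).norm).const_mul _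
    refine le_of_tendsto h2 ?_
    have : Ioc (0 : ℝ) t ∈ 𝓝[>] (0 : ℝ) := Ioc_mem_nhdsGT h0
    filter_upwards [this] with s hs
    exact last_ver D hε5 h0 h1 hlast hs.1 hs.2
  obtain ⟨c1, c2⟩ := D.comp hm
  have hit : H - ((b : ℂ) + ((H - t : ℝ) : ℂ) * I).im = t := ax_depth H b t
  rw [hit] at c1 c2
  have hmono : t ^ (1 - 2 * ε) ≤ t ^ (1 - 3 * ε) :=
    Real.rpow_le_rpow_of_exponent_ge h0 (h1.trans D.d1) (by linarith)
  have ht3 : 0 ≤ t ^ (1 - 3 * ε) := Real.rpow_nonneg h0.le _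
  have hC2 : C ^ 2 * t ^ (1 - 2 * ε) ≤ C ^ 3 / (1 - 5 * ε) * t ^ (1 - 3 * ε) := by
    have h3 : C ^ 2 ≤ C ^ 3 / (1 - 5 * ε) := by
      rw [le_div_iff₀ hpos]
      calc C ^ 2 * (1 - 5 * ε) ≤ C ^ 2 * 1 := by gcongr; linarith
        _ ≤ C ^ 2 * C := by gcongr
        _ = C ^ 3 := by ring
    have : 0 ≤ t ^ (1 - 2 * ε) := Real.rpow_nonneg h0.le _
    have : 0 ≤ C ^ 3 / (1 - 5 * ε) := by positivity
    gcongr
  have hg1 : ‖g (ax H b t)‖ ≤ √(den H g u (ax H b t)) := norm_le_sqrt_den_g H g u _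
  have hu1 : t * ‖u (ax H b t)‖ ≤ √(den H g u (ax H b t)) := by
    have := norm_le_sqrt_den_u (H := H) g u (x := ax H b t) (by rw [ax_depth]; exact h0.le)
    rwa [ax_depth] at this
  set p := pr H g u Y U (ax H b t) with hp
  have hsum : C ^ 3 / (1 - 5 * ε) * t ^ (1 - 3 * ε) + 4 * C ^ 3 / (1 - 5 * ε) * t ^ (1 - 3 * ε) =
      5 * C ^ 3 / (1 - 5 * ε) * t ^ (1 - 3 * ε) := by ring
  constructor
  · calc ‖Y (ax H b t) - P * g (ax H b t)‖
        = ‖(Y (ax H b t) - p * g (ax H b t)) + (p - P) * g (ax H b t)‖ := by congr 1; ring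
      _ ≤ ‖Y (ax H b t) - p * g (ax H b t)‖ + ‖p - P‖ * ‖g (ax H b t)‖ := by
          refine (norm_add_le _ _).trans ?_
          rw [norm_mul]
      _ ≤ C ^ 3 / (1 - 5 * ε) * t ^ (1 - 3 * ε) + 4 * C ^ 3 / (1 - 5 * ε) * t ^ (1 - 3 * ε) := by
          apply add_le_add (c1.trans hC2)
          refine le_trans ?_ hkey
          rw [mul_comm]
          gcongr
      _ = _ := hsum
  · calc t * ‖U (ax H b t) - P * u (ax H b t)‖
        = ‖(t : ℂ) * (U (ax H b t) - p * u (ax H b t)) + (p - P) * ((t : ℂ) * u (ax H b t))‖ := by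
          rw [← abs_of_pos h0, ← Real.norm_eq_abs, ← norm_real, ← norm_mul]
          simp only [Real.norm_eq_abs, abs_of_pos h0, norm_real]
          congr 1; ring
      _ ≤ t * ‖U (ax H b t) - p * u (ax H b t)‖ + ‖p - P‖ * (t * ‖u (ax H b t)‖) := by
          refine (norm_add_le _ _).trans ?_
          rw [norm_mul, norm_mul, norm_mul, norm_real, Real.norm_of_nonneg h0.le]
      _ ≤ C ^ 3 / (1 - 5 * ε) * t ^ (1 - 3 * ε) + 4 * C ^ 3 / (1 - 5 * ε) * t ^ (1 - 3 * ε) := by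
          apply add_le_add (c2.trans hC2)
          refine le_trans ?_ hkey
          rw [mul_comm]
          gcongr
      _ = _ := hsum

end

end Vale.Agent.P097.H649.St
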